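import Vale.Agent.P088.H650.CFb

/-!
# P088, theorem CF, row ESF (3): frequencies, norms, coefficients
-/

open MeasureTheory Set Filter Topology
open scoped ContDiff Matrix

noncomputable section

namespace Vale.Agent.P088.LR.H650

open Vale.Agent.P088.LR Vale.Agent.P088.LR.CF

variable {n : ℕ}

/-! ## Frequencies -/

theorem nr_nonneg (ξ : V n) : 0 ≤ nr ξ := Real.sqrt_nonneg _

theorem abs_le_nr (ξ : V n) (j : Fin n) : |ξ j| ≤ nr ξ := by
  unfold nr
  rw [← Real.sqrt_sq_eq_abs]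
  refine Real.sqrt_le_sqrt ?_
  exact Finset.single_le_sum (f := fun j => ξ j ^ 2) (fun _ _ => sq_nonneg _) (Finset.mem_univ j)

theorem zs_norm {e : ℝ} (he : e = 1 ∨ e = -1) (i₀ : Fin n) (ξ : V n) (j : Fin n) :
    ‖zs e i₀ ξ j‖ ≤ 2 * Real.pi * nr ξ := by
  have hpi := Real.pi_pos
  have hn := nr_nonneg ξ
  have h1 : ‖zs e i₀ ξ j‖ ≤ |(zs e i₀ ξ j).re| + |(zs e i₀ ξ j).im| :=
    Complex.norm_le_abs_re_add_abs_im _
  have h2 : |(zs e i₀ ξ j).re| ≤ Real.pi * nr ξ := by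
    have h3 : (zs e i₀ ξ j).re = if j = i₀ then e * Real.pi * nr ξ else 0 := rfl
    rw [h3]
    split_ifs
    · have h5 : |e| = 1 := by
        rcases he with rfl | rfl
        · exact abs_one
        · rw [abs_neg, abs_one]
      rw [abs_mul, abs_mul, h5, one_mul, abs_of_pos hpi, abs_of_nonneg hn]
    · rw [abs_zero]; positivity
  have h4 : |(zs e i₀ ξ j).im| ≤ Real.pi * nr ξ := by
    have h3 : (zs e i₀ ξ j).im = -(Real.pi * ξ j) := rfl
    rw [h3, abs_neg, abs_mul, abs_of_pos hpi]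
    exact mul_le_mul_of_nonneg_left (abs_le_nr ξ j) hpi.le
  linarith

/-- `δ_{i i₀}` -/
def dl (i₀ i : Fin n) : ℂ := if i = i₀ then 1 else 0

theorem zs_eq (e : ℝ) (i₀ : Fin n) (ξ : V n) (j : Fin n) :
    zs e i₀ ξ j = (e : ℂ) * (Real.pi * nr ξ : ℝ) * dl i₀ j - (Real.pi * ξ j : ℝ) * Complex.I := by
  apply Complex.ext
  · simp only [zs, dl]
    split_ifs <;> simp [mul_assoc]
  · simp only [zs, dl]
    split_ifs <;> simp

theorem zs_exp (i₀ : Fin n) (ξ x : V n) :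
    Complex.exp (∑ j, zs 1 i₀ ξ j * x j) * Complex.exp (∑ j, zs (-1) i₀ ξ j * x j) =
      ex (-ξ) x := by
  rw [ex, ← Complex.exp_add]
  congr 1
  rw [← Finset.sum_add_distrib]
  push_cast
  rw [Finset.mul_sum]
  refine Finset.sum_congr rfl fun j _ => ?_
  rw [zs_eq, zs_eq, Pi.neg_apply]
  push_cast
  ring

/-- the main term -/
theorem main_term (i₀ : Fin n) (ξ : V n) {H : Fin n → Fin n → ℂ} (hH : ∀ i j, H i j = H j i) :
    ∑ i, ∑ j, zs 1 i₀ ξ i * zs (-1) i₀ ξ j * H i j =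
      -((Real.pi : ℂ) ^ 2) * (((nr ξ : ℝ) : ℂ) ^ 2 * H i₀ i₀ + ∑ i, ∑ j, (ξ i : ℂ) * ξ j * H i j) := by
  have e0 : ∑ i, ∑ j, dl i₀ i * dl i₀ j * H i j = H i₀ i₀ := by
    rw [Finset.sum_eq_single i₀]
    · rw [Finset.sum_eq_single i₀]
      · simp [dl]
      · intro j _ hj
        simp [dl, hj]
      · intro h
        exact absurd (Finset.mem_univ i₀) h
    · intro i _ hi
      refine Finset.sum_eq_zero fun j _ => ?_
      simp [dl, hi]
    · intro h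
      exact absurd (Finset.mem_univ i₀) h
  have e1 : ∑ i, ∑ j, dl i₀ i * (ξ j : ℂ) * H i j = ∑ i, ∑ j, (ξ i : ℂ) * dl i₀ j * H i j := by
    rw [Finset.sum_comm]
    refine Finset.sum_congr rfl fun i _ => Finset.sum_congr rfl fun j _ => ?_
    rw [hH j i]
    ring
  have h1 : ∑ i, ∑ j, zs 1 i₀ ξ i * zs (-1) i₀ ξ j * H i j =
      -((Real.pi * nr ξ : ℝ) : ℂ) ^ 2 * ∑ i, ∑ j, dl i₀ i * dl i₀ j * H i j
        - ((Real.pi * nr ξ : ℝ) : ℂ) * Real.pi * Complex.I *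
          ∑ i, ∑ j, dl i₀ i * (ξ j : ℂ) * H i j
        + ((Real.pi * nr ξ : ℝ) : ℂ) * Real.pi * Complex.I *
          ∑ i, ∑ j, (ξ i : ℂ) * dl i₀ j * H i j
        - (Real.pi : ℂ) ^ 2 * ∑ i, ∑ j, (ξ i : ℂ) * ξ j * H i j := by
    simp only [Finset.mul_sum]
    rw [← Finset.sum_sub_distrib, ← Finset.sum_add_distrib, ← Finset.sum_sub_distrib]
    refine Finset.sum_congr rfl fun i _ => ?_
    rw [← Finset.sum_sub_distrib, ← Finset.sum_add_distrib, ← Finset.sum_sub_distrib]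
    refine Finset.sum_congr rfl fun j _ => ?_
    rw [zs_eq, zs_eq]
    push_cast
    linear_combination (Real.pi : ℂ) ^ 2 * (ξ i : ℂ) * (ξ j : ℂ) * H i j * Complex.I_sq
  rw [h1, e0, e1]
  push_cast
  ring

/-! ## Norms -/

theorem nm_mono {c : Ix n → ℂ} (hc : RD c) (m : ℕ) : nm 0 c ≤ nm m c := by
  unfold nm
  refine (hc 0).tsum_le_tsum (fun k => ?_) (hc m)
  have h1 : 1 ≤ wt k ^ m := one_le_pow₀ (H776.wt_one k)
  rw [pow_zero, one_mul]
  nlinarith [norm_nonneg (c k)]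

theorem rd_sub {c d : Ix n → ℂ} (hc : RD c) (hd : RD d) : RD fun k => c k - d k := by
  have h := H127.rd_add hc (H127.rd_const_mul hd (-1))
  refine fun m => (h m).congr fun k => ?_
  congr 2
  ring

theorem es_split {c d : Ix n → ℂ} (hc : RD c) (hd : RD d) (θ x : V n) :
    Es θ c x = Es θ d x + Es θ (fun k => c k - d k) x := by
  rw [← H127.es_add hd (rd_sub hc hd)]
  have : (fun k => d k + (c k - d k)) = c := by
    funext k
    ring
  rw [this]

theorem nm_sum_le {ι : Type*} (S : Finset ι) {c : ι → Ix n → ℂ} (hc : ∀ i ∈ S, Summable fun k => ‖c i k‖) :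
    nm 0 (fun k => ∑ i ∈ S, c i k) ≤ ∑ i ∈ S, nm 0 (c i) := by
  rw [nm_eq_zero]
  simp only [nm_eq_zero]
  rw [← Summable.tsum_finsetSum hc]
  have h1 : Summable fun k => ∑ i ∈ S, ‖c i k‖ := summable_sum hc
  exact (Summable.of_nonneg_of_le (fun _ => norm_nonneg _) (fun k => norm_sum_le _ _) h1).tsum_le_tsum
    (fun k => norm_sum_le _ _) h1

/-! ## Supports and coefficients -/

theorem supp_of {f : V n → ℂ} (h : ∀ x ∉ core n, f x = 0) : tsupport f ⊆ cube n := by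
  refine (closure_minimal (fun x hx => ?_) H127.isCompact_core.isClosed).trans H127.core_sub
  by_contra hn
  exact hx (h x hn)

theorem cf_sum {ι : Type*} (S : Finset ι) {f : ι → V n → ℂ} (hf : ∀ i ∈ S, Continuous (f i))
    (h : ∀ i ∈ S, ∀ x ∉ core n, f i x = 0) :
    cf 0 (fun x => ∑ i ∈ S, f i x) = fun k => ∑ i ∈ S, cf 0 (f i) k := by
  funext k
  simp only [cf, ft, Finset.sum_mul]
  refine integral_finsetSum _ fun i hi => ?_
  exact ((hf i hi).mul (H776.ex_contDiff _).continuous).integrable_of_hasCompactSupport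
    (H776.cube_compact (supp_of (h i hi))).mul_right

theorem cf_add {f g : V n → ℂ} (hf : Continuous f) (hg : Continuous g)
    (h1 : ∀ x ∉ core n, f x = 0) (h2 : ∀ x ∉ core n, g x = 0) :
    cf 0 (fun x => f x + g x) = fun k => cf 0 f k + cf 0 g k := by
  funext k
  simp only [cf, ft, add_mul]
  exact integral_add ((hf.mul (H776.ex_contDiff _).continuous).integrable_of_hasCompactSupport
    (H776.cube_compact (supp_of h1)).mul_right)
    ((hg.mul (H776.ex_contDiff _).continuous).integrable_of_hasCompactSupport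
    (H776.cube_compact (supp_of h2)).mul_right)

theorem nm_add_le {c d : Ix n → ℂ} (hc : RD c) (hd : RD d) :
    nm 0 (fun k => c k + d k) ≤ nm 0 c + nm 0 d := by
  have h1 := H127.sum_of_rd hc
  have h2 := H127.sum_of_rd hd
  rw [nm_eq_zero, nm_eq_zero, nm_eq_zero, ← h1.tsum_add h2]
  exact (Summable.of_nonneg_of_le (fun _ => norm_nonneg _) (fun k => norm_add_le _ _)
    (h1.add h2)).tsum_le_tsum (fun k => norm_add_le _ _) (h1.add h2)

theorem cl_ofReal {f : V n → ℝ} (hf : ContDiff ℝ ∞ f) {k : ℕ} {b : ℝ} (h : Cl k b f) :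
    Cl k b (fun x => ((f x : ℝ) : ℂ)) := by
  intro l hl x
  have h1 : ‖iteratedFDeriv ℝ l (Complex.ofRealLI ∘ f) x‖ = ‖iteratedFDeriv ℝ l f x‖ :=
    Complex.ofRealLI.norm_iteratedFDeriv_comp_left (n := ∞) hf.contDiffAt
      (by exact_mod_cast le_top)
  have h2 : (fun x => ((f x : ℝ) : ℂ)) = Complex.ofRealLI ∘ f := rfl
  rw [h2, h1]
  exact h l hl x

/-! ## The coefficients of the equation -/

variable {Ω : Set (V n)} {σ : V n → ℝ} {s : MF n}

/-- `H = (s - σ) / σ` -/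
def HH (σ : V n → ℝ) (s : MF n) (i j : Fin n) (x : V n) : ℂ :=
  df (sc σ) s i j x + df (sc σ) s i j x * (((σ x)⁻¹ - 1 : ℝ) : ℂ)

/-- `Λ = ℓ + ℓ H` -/
def LH (σ : V n → ℝ) (s : MF n) (j : Fin n) (x : V n) : ℂ :=
  lg σ j x + ∑ i, lg σ i x * HH σ s i j x

theorem rr_contDiff (B : Bk Ω σ s) : ContDiff ℝ ∞ fun x => (((σ x)⁻¹ - 1 : ℝ) : ℂ) :=
  ofReal_contDiff ((B.sσ.inv fun x => (B.pos x).ne').sub contDiff_const)

theorem not_bal {x : V n} (hx : x ∉ core n) : x ∉ bal n := fun h => hx (bal_sub h)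

theorem rr_zero (B : Bk Ω σ s) {x : V n} (hx : x ∉ core n) : (((σ x)⁻¹ - 1 : ℝ) : ℂ) = 0 := by
  rw [B.one x (not_bal hx)]
  simp

theorem df_zero' (B : Bk Ω σ s) (i j : Fin n) {x : V n} (hx : x ∉ core n) :
    df (sc σ) s i j x = 0 := df_zero B i j fun h => hx (bal_sub (B.sub h))

theorem bal_closed : IsClosed (bal n) := by
  have : Continuous fun x : V n => ∑ j, (x j - 1 / 2) ^ 2 :=
    continuous_finsetSum _ fun j _ => ((continuous_apply j).sub continuous_const).pow 2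
  exact isClosed_le this continuous_const

theorem lg_zero (B : Bk Ω σ s) (j : Fin n) {x : V n} (hx : x ∉ core n) : lg σ j x = 0 := by
  have h1 : σ =ᶠ[𝓝 x] fun _ => (1 : ℝ) := by
    filter_upwards [bal_closed.isOpen_compl.mem_nhds (not_bal hx)] with y hy
    exact B.one y hy
  have h2 : pd j σ x = 0 := by
    rw [pd, h1.fderiv_eq]
    simp
  rw [lg, h2]
  simp

theorem HH_contDiff (B : Bk Ω σ s) (i j : Fin n) : ContDiff ℝ ∞ (HH σ s i j) :=
  (df_contDiff B.sσ B.sm i j).add ((df_contDiff B.sσ B.sm i j).mul (rr_contDiff B))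

theorem HH_zero (B : Bk Ω σ s) (i j : Fin n) {x : V n} (hx : x ∉ core n) : HH σ s i j x = 0 := by
  rw [HH, df_zero' B i j hx]
  simp

theorem LH_contDiff (B : Bk Ω σ s) (j : Fin n) : ContDiff ℝ ∞ (LH σ s j) :=
  (lg_contDiff B.sσ B.pos j).add (ContDiff.sum fun i _ =>
    (lg_contDiff B.sσ B.pos i).mul (HH_contDiff B i j))

theorem LH_zero (B : Bk Ω σ s) (j : Fin n) {x : V n} (hx : x ∉ core n) : LH σ s j x = 0 := by
  rw [LH, lg_zero B j hx, zero_add]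
  refine Finset.sum_eq_zero fun i _ => ?_
  rw [lg_zero B i hx, zero_mul]

theorem s_eq (B : Bk Ω σ s) (i j : Fin n) (y : V n) : ((s y i j : ℝ) : ℂ) =
    (σ y : ℂ) * ((1 : Matrix (Fin n) (Fin n) ℂ) i j + HH σ s i j y) := by
  have hσ : ((σ y : ℝ) : ℂ) ≠ 0 := by
    have := (B.pos y).ne'
    exact_mod_cast this
  have h1 : sc σ y i j = σ y * (1 : Matrix (Fin n) (Fin n) ℝ) i j := rfl
  have h2 : ((1 : Matrix (Fin n) (Fin n) ℂ) i j) =
      (((1 : Matrix (Fin n) (Fin n) ℝ) i j : ℝ) : ℂ) := by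
    rcases eq_or_ne i j with rfl | h
    · simp
    · rw [Matrix.one_apply_ne h, Matrix.one_apply_ne h]; simp
  rw [HH, df, h1, h2]
  push_cast
  field_simp
  ring

theorem sc_eq (σ : V n → ℝ) (i j : Fin n) (y : V n) : ((sc σ y i j : ℝ) : ℂ) =
    (σ y : ℂ) * ((1 : Matrix (Fin n) (Fin n) ℂ) i j + (0 : ℂ)) := by
  have h1 : sc σ y i j = σ y * (1 : Matrix (Fin n) (Fin n) ℝ) i j := rfl
  have h2 : ((1 : Matrix (Fin n) (Fin n) ℂ) i j) =
      (((1 : Matrix (Fin n) (Fin n) ℝ) i j : ℝ) : ℂ) := by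
    rcases eq_or_ne i j with rfl | h
    · simp
    · rw [Matrix.one_apply_ne h, Matrix.one_apply_ne h]; simp
  rw [h1, h2]
  push_cast
  ring

/-- product bound -/
theorem nm_cf_mul (hA2 : RowA2) {C₃ : ℝ} (hA3 : ∀ (f : V n → ℂ), ContDiff ℝ ∞ f →
    tsupport f ⊆ cube n → ∀ θ : V n, (∀ j, |θ j| ≤ 1) → RD (cf θ f) ∧
    (∀ x ∈ cube n, f x = Es θ (cf θ f) x) ∧ ∀ B, Cl (0 + n + 1) B f → nm 0 (cf θ f) ≤ C₃ * B)
    {f g : V n → ℂ} (hf : ContDiff ℝ ∞ f) (hg : ContDiff ℝ ∞ g) (h1 : ∀ x ∉ core n, f x = 0)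
    (h2 : ∀ x ∉ core n, g x = 0) :
    RD (cf 0 f) ∧ RD (cf 0 g) ∧ RD (cf 0 fun x => f x * g x) ∧
      nm 0 (cf 0 fun x => f x * g x) ≤ nm 0 (cf 0 f) * nm 0 (cf 0 g) := by
  obtain ⟨a1, a2, -⟩ := hA3 f hf (supp_of h1) 0 (fun j => by simp)
  obtain ⟨b1, b2, -⟩ := hA3 g hg (supp_of h2) 0 (fun j => by simp)
  rw [cf_mul hf.continuous (supp_of h1) b1 b2]
  obtain ⟨c1, -, -, c4⟩ := hA2 0 0 (cf 0 f) (cf 0 g) a1 b1
  exact ⟨a1, b1, c1, c4 0⟩

end Vale.Agent.P088.LR.H650
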