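import Vale.Agent.P088.H650.CFc

/-!
# P088, theorem CF, row ESF: the estimate in the frame `e_{i₀}`
-/

open MeasureTheory Set Filter Topology
open scoped ContDiff Matrix

noncomputable section

namespace Vale.Agent.P088.LR.H650

open Vale.Agent.P088.LR Vale.Agent.P088.LR.CF

variable {n : ℕ} {Ω : Set (V n)} {σ : V n → ℝ} {s : MF n}

/-- sum of the weights -/
def SW (n : ℕ) : ℝ := ∑' k : Ix n, (wt k ^ (n + 1))⁻¹

theorem SW_nonneg (n : ℕ) : 0 ≤ SW n :=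
  tsum_nonneg fun k => inv_nonneg.2 (pow_pos (H776.wt_pos k) _).le

/-- the coefficients of `H` and `Λ - Λ₀` in `ℓ¹` -/
theorem coef_bd (hA2 : RowA2) {C₃ : ℝ} (hA3 : ∀ (f : V n → ℂ), ContDiff ℝ ∞ f →
    tsupport f ⊆ cube n → ∀ θ : V n, (∀ j, |θ j| ≤ 1) → RD (cf θ f) ∧
    (∀ x ∈ cube n, f x = Es θ (cf θ f) x) ∧ ∀ B, Cl (0 + n + 1) B f → nm 0 (cf θ f) ≤ C₃ * B)
    (B : Bk Ω σ s) {a b : ℝ} (hb1 : C₃ * b ≤ 1)
    (hl : ∀ j, Cl (0 + n + 1) b (lg σ j)) (hr : Cl (0 + n + 1) b (fun x => (σ x)⁻¹ - 1))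
    (hg : ∀ i j, ∀ ζ : V n, wr ζ ^ (n + 1) * ‖ft (df (sc σ) s i j) ζ‖ ≤ a) :
    (∀ i j, nm 0 (cf 0 (HH σ s i j)) ≤ 2 * SW n * a) ∧
      ∀ j, nm 0 (cf 0 (fun x => LH σ s j x - lg σ j x)) ≤ n * (2 * SW n * a) := by
  have hS := SW_nonneg n
  have hrc : ContDiff ℝ ∞ fun x => (σ x)⁻¹ - 1 := (B.sσ.inv fun x => (B.pos x).ne').sub
    contDiff_const
  have k1 : nm 0 (cf 0 fun x => (((σ x)⁻¹ - 1 : ℝ) : ℂ)) ≤ 1 :=
    ((hA3 _ (rr_contDiff B) (supp_of fun x hx => rr_zero B hx) 0 (fun j => by simp)).2.2 b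
      (cl_ofReal hrc hr)).trans hb1
  have k2 : ∀ i, nm 0 (cf 0 (lg σ i)) ≤ 1 := fun i =>
    ((hA3 _ (lg_contDiff B.sσ B.pos i) (supp_of fun x hx => lg_zero B i hx) 0
      (fun j => by simp)).2.2 b (hl i)).trans hb1
  have k3 : ∀ i j, nm 0 (cf 0 (df (sc σ) s i j)) ≤ a * SW n := fun i j => nm_cf_le (hg i j)
  have k4 : ∀ i j, nm 0 (cf 0 (HH σ s i j)) ≤ 2 * SW n * a := by
    intro i j
    obtain ⟨p1, p2, p3, p4⟩ := nm_cf_mul hA2 hA3 (df_contDiff B.sσ B.sm i j) (rr_contDiff B)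
      (fun x hx => df_zero' B i j hx) (fun x hx => rr_zero B hx)
    have e1 : cf 0 (HH σ s i j) = fun k => cf 0 (df (sc σ) s i j) k +
        cf 0 (fun x => df (sc σ) s i j x * (((σ x)⁻¹ - 1 : ℝ) : ℂ)) k :=
      cf_add (df_cont B i j) ((df_cont B i j).mul (rr_contDiff B).continuous)
        (fun x hx => df_zero' B i j hx) (fun x hx => by rw [df_zero' B i j hx, zero_mul])
    rw [e1]
    refine (nm_add_le p1 p3).trans ?_
    have q1 := k3 i j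
    have q2 := nm_nonneg 0 (cf 0 (df (sc σ) s i j))
    have q3 : nm 0 (cf 0 (df (sc σ) s i j)) * nm 0 (cf 0 fun x => (((σ x)⁻¹ - 1 : ℝ) : ℂ)) ≤
        nm 0 (cf 0 (df (sc σ) s i j)) * 1 := mul_le_mul_of_nonneg_left k1 q2
    linarith
  refine ⟨k4, fun j => ?_⟩
  have e2 : (fun x => LH σ s j x - lg σ j x) = fun x => ∑ i, lg σ i x * HH σ s i j x := by
    funext x
    rw [LH]
    ring
  have e3 := cf_sum (n := n) (Finset.univ : Finset (Fin n)) (f := fun i x => lg σ i x * HH σ s i j x)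
    (fun i _ => ((lg_contDiff B.sσ B.pos i).mul (HH_contDiff B i j)).continuous)
    (fun i _ x hx => by rw [lg_zero B i hx, zero_mul])
  rw [e2, e3]
  have e4 : ∀ i, RD (cf 0 fun x => lg σ i x * HH σ s i j x) ∧
      nm 0 (cf 0 fun x => lg σ i x * HH σ s i j x) ≤ 2 * SW n * a := by
    intro i
    obtain ⟨p1, p2, p3, p4⟩ := nm_cf_mul hA2 hA3 (lg_contDiff B.sσ B.pos i) (HH_contDiff B i j)
      (fun x hx => lg_zero B i hx) (fun x hx => HH_zero B i j hx)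
    refine ⟨p3, p4.trans ?_⟩
    have q2 := nm_nonneg 0 (cf 0 (HH σ s i j))
    calc nm 0 (cf 0 (lg σ i)) * nm 0 (cf 0 (HH σ s i j)) ≤ 1 * nm 0 (cf 0 (HH σ s i j)) :=
          mul_le_mul_of_nonneg_right (k2 i) q2
      _ ≤ _ := by rw [one_mul]; exact k4 i j
  refine (nm_sum_le Finset.univ fun i _ => H127.sum_of_rd (e4 i).1).trans ?_
  calc ∑ i, nm 0 (cf 0 fun x => lg σ i x * HH σ s i j x) ≤ ∑ _i : Fin n, 2 * SW n * a :=
        Finset.sum_le_sum fun i _ => (e4 i).2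
    _ = _ := by simp

/-- one entry -/
theorem entry_bd (hA2 : RowA2) {g : V n → ℂ} (hgc : Continuous g) (hgs : HasCompactSupport g)
    {a : ℝ} (ha : 0 ≤ a) (hg : ∀ ζ : V n, wr ζ ^ (n + 1) * ‖ft g ζ‖ ≤ a)
    {θ : V n} (hθ : ∑ j, |θ j| ≤ 1 / 2) (ξ : V n) {X b A C₁ : ℝ} (hX : 1 ≤ X) (hb : 0 ≤ b)
    (hA : 0 ≤ A) (hC₁ : 0 ≤ C₁) (hC₁b : C₁ * b ≤ 1) {c c' d : Ix n → ℂ} (hc : RD c)
    (hc' : RD c') (hd : RD d) (n1 : nm (n + 1) c ≤ C₁ * X * b) (n2 : nm (n + 1) c' ≤ C₁ * X * b)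
    (n3 : nm 0 (fun k => d k - c' k) ≤ C₁ * X ^ 2 * A) {zi zj : ℂ} (hzi : ‖zi‖ ≤ 2 * Real.pi * X)
    (hzj : ‖zj‖ ≤ 2 * Real.pi * X) :
    wr ξ ^ (n + 1) * ‖zj * J g ξ (Es θ c) + zi * J g ξ (Es θ d) +
        J g ξ (fun x => Es θ c x * Es θ d x)‖ ≤
      (4 * Real.pi + 1) * 2 ^ (n + 1) * C₁ * (X ^ 2 * (b * a)) +
        (2 * Real.pi + 1) * C₁ * (X ^ 3 * (a * A) * wr ξ ^ (n + 1)) := by
  have hpi := Real.pi_pos
  have hw : 1 ≤ wr ξ ^ (n + 1) := one_le_pow₀ (wr_one ξ)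
  have hw0 : 0 ≤ wr ξ ^ (n + 1) := by linarith
  have hX0 : 0 ≤ X := by linarith
  have hθ1 : ∑ j, |θ j| ≤ 1 := by linarith
  have hθ2 : ∑ j, |(θ + θ) j| ≤ 1 := by
    have : ∑ j, |(θ + θ) j| = ∑ j, |θ j| + ∑ j, |θ j| := by
      rw [← Finset.sum_add_distrib]
      refine Finset.sum_congr rfl fun j _ => ?_
      rw [Pi.add_apply, ← two_mul, abs_mul, abs_two, two_mul]
    rw [this]; linarith
  set r : Ix n → ℂ := fun k => d k - c' k with hr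
  have hrr : RD r := rd_sub hd hc'
  have ec : ∀ {c : Ix n → ℂ}, RD c → Continuous (Es θ c) := fun h => H127.es_continuous h θ
  have s1 : (fun x => Es θ d x) = fun x => Es θ c' x + Es θ r x := by
    funext x
    exact es_split hd hc' θ x
  have s2 : J g ξ (Es θ d) = J g ξ (Es θ c') + J g ξ (Es θ r) := by
    rw [← J_add hgc hgs ξ (ec hc') (ec hrr)]
    exact congrArg (J g ξ) s1
  have s3 : J g ξ (fun x => Es θ c x * Es θ d x) =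
      J g ξ (fun x => Es θ c x * Es θ c' x) + J g ξ (fun x => Es θ c x * Es θ r x) := by
    rw [← J_add hgc hgs ξ (u := fun x => Es θ c x * Es θ c' x)
      (v := fun x => Es θ c x * Es θ r x) ((ec hc).mul (ec hc')) ((ec hc).mul (ec hrr))]
    refine congrArg (J g ξ) ?_
    funext x
    rw [es_split hd hc' θ x]
    ring
  have jw : ∀ {c : Ix n → ℂ}, RD c →
      wr ξ ^ (n + 1) * ‖J g ξ (Es θ c)‖ ≤ 2 ^ (n + 1) * (a * nm (n + 1) c) := by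
    intro c hc
    rw [J, ft_es hgc hgs hc]
    exact ft_es_bd hg hc hθ1 ξ
  have j0 : ∀ {c : Ix n → ℂ}, RD c → ‖J g ξ (Es θ c)‖ ≤ a * nm 0 c := by
    intro c hc
    rw [J, ft_es hgc hgs hc]
    exact ft_es_bd0 hg hc θ ξ
  have pe : ∀ {c d : Ix n → ℂ}, RD c → RD d → J g ξ (fun x => Es θ c x * Es θ d x) =
      ∑' m, cv c d m * ft g (ξ - fr (θ + θ) m) := by
    intro c d hc hd
    obtain ⟨p1, -, p3, -⟩ := hA2 θ θ c d hc hd
    rw [← ft_es hgc hgs p1 (θ + θ) ξ, J]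
    simp only [p3]
  have b1 := jw hc
  have b2 := jw hc'
  have b3 := j0 hrr
  have b4 : wr ξ ^ (n + 1) * ‖J g ξ (fun x => Es θ c x * Es θ c' x)‖ ≤
      2 ^ (n + 1) * (a * (nm (n + 1) c * nm (n + 1) c')) := by
    rw [pe hc hc']
    obtain ⟨p1, -, -, p4⟩ := hA2 θ θ c c' hc hc'
    refine (ft_es_bd hg p1 hθ2 ξ).trans ?_
    have := mul_le_mul_of_nonneg_left (p4 (n + 1)) ha
    exact mul_le_mul_of_nonneg_left this (by positivity)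
  have b5 : ‖J g ξ (fun x => Es θ c x * Es θ r x)‖ ≤ a * (nm 0 c * nm 0 r) := by
    rw [pe hc hrr]
    obtain ⟨p1, -, -, p4⟩ := hA2 θ θ c r hc hrr
    exact (ft_es_bd0 hg p1 (θ + θ) ξ).trans (mul_le_mul_of_nonneg_left (p4 0) ha)
  have n0 : nm 0 c ≤ C₁ * X * b := (nm_mono hc _).trans n1
  have z1 := nm_nonneg (n + 1) c
  have z2 := nm_nonneg (n + 1) c'
  have z3 := nm_nonneg 0 c
  have z4 := nm_nonneg 0 r
  set P : ℝ := 2 ^ (n + 1) with hP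
  have hP0 : 0 < P := by positivity
  -- the five terms
  have t1 : wr ξ ^ (n + 1) * ‖zj * J g ξ (Es θ c)‖ ≤ 2 * Real.pi * P * C₁ * (X ^ 2 * (b * a)) := by
    rw [norm_mul]
    calc wr ξ ^ (n + 1) * (‖zj‖ * ‖J g ξ (Es θ c)‖)
        = ‖zj‖ * (wr ξ ^ (n + 1) * ‖J g ξ (Es θ c)‖) := by ring
      _ ≤ (2 * Real.pi * X) * (P * (a * (C₁ * X * b))) := by
          refine mul_le_mul hzj (b1.trans ?_) (by positivity) (by positivity)
          exact mul_le_mul_of_nonneg_left (mul_le_mul_of_nonneg_left n1 ha) hP0.le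
      _ = _ := by ring
  have t2 : wr ξ ^ (n + 1) * ‖zi * J g ξ (Es θ c')‖ ≤ 2 * Real.pi * P * C₁ * (X ^ 2 * (b * a)) := by
    rw [norm_mul]
    calc wr ξ ^ (n + 1) * (‖zi‖ * ‖J g ξ (Es θ c')‖)
        = ‖zi‖ * (wr ξ ^ (n + 1) * ‖J g ξ (Es θ c')‖) := by ring
      _ ≤ (2 * Real.pi * X) * (P * (a * (C₁ * X * b))) := by
          refine mul_le_mul hzi (b2.trans ?_) (by positivity) (by positivity)
          exact mul_le_mul_of_nonneg_left (mul_le_mul_of_nonneg_left n2 ha) hP0.le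
      _ = _ := by ring
  have t3 : wr ξ ^ (n + 1) * ‖zi * J g ξ (Es θ r)‖ ≤
      2 * Real.pi * C₁ * (X ^ 3 * (a * A) * wr ξ ^ (n + 1)) := by
    rw [norm_mul]
    calc wr ξ ^ (n + 1) * (‖zi‖ * ‖J g ξ (Es θ r)‖)
        ≤ wr ξ ^ (n + 1) * ((2 * Real.pi * X) * (a * (C₁ * X ^ 2 * A))) := by
          refine mul_le_mul_of_nonneg_left ?_ hw0
          exact mul_le_mul hzi (b3.trans (mul_le_mul_of_nonneg_left n3 ha)) (norm_nonneg _)
            (by positivity)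
      _ = _ := by ring
  have t4 : wr ξ ^ (n + 1) * ‖J g ξ (fun x => Es θ c x * Es θ c' x)‖ ≤
      P * C₁ * (X ^ 2 * (b * a)) := by
    refine b4.trans ?_
    have h1 : nm (n + 1) c * nm (n + 1) c' ≤ (C₁ * X * b) * (C₁ * X * b) :=
      mul_le_mul n1 n2 z2 (z1.trans n1)
    have h2 : (C₁ * X * b) * (C₁ * X * b) = (C₁ * b) * (C₁ * (X ^ 2 * b)) := by ring
    have h3 : (C₁ * b) * (C₁ * (X ^ 2 * b)) ≤ 1 * (C₁ * (X ^ 2 * b)) :=
      mul_le_mul_of_nonneg_right hC₁b (by positivity)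
    calc P * (a * (nm (n + 1) c * nm (n + 1) c')) ≤ P * (a * (1 * (C₁ * (X ^ 2 * b)))) :=
          mul_le_mul_of_nonneg_left (mul_le_mul_of_nonneg_left (by linarith) ha) hP0.le
      _ = _ := by ring
  have t5 : wr ξ ^ (n + 1) * ‖J g ξ (fun x => Es θ c x * Es θ r x)‖ ≤
      C₁ * (X ^ 3 * (a * A) * wr ξ ^ (n + 1)) := by
    have h1 : nm 0 c * nm 0 r ≤ (C₁ * X * b) * (C₁ * X ^ 2 * A) :=
      mul_le_mul n0 n3 z4 (z3.trans n0)
    have h2 : (C₁ * X * b) * (C₁ * X ^ 2 * A) = (C₁ * b) * (C₁ * (X ^ 3 * A)) := by ring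
    have h3 : (C₁ * b) * (C₁ * (X ^ 3 * A)) ≤ 1 * (C₁ * (X ^ 3 * A)) :=
      mul_le_mul_of_nonneg_right hC₁b (by positivity)
    calc wr ξ ^ (n + 1) * ‖J g ξ (fun x => Es θ c x * Es θ r x)‖
        ≤ wr ξ ^ (n + 1) * (a * (1 * (C₁ * (X ^ 3 * A)))) := by
          refine mul_le_mul_of_nonneg_left (b5.trans ?_) hw0
          exact mul_le_mul_of_nonneg_left (by linarith) ha
      _ = _ := by ring
  have e1 : zj * J g ξ (Es θ c) + zi * J g ξ (Es θ d) + J g ξ (fun x => Es θ c x * Es θ d x) =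
      zj * J g ξ (Es θ c) + zi * J g ξ (Es θ c') + zi * J g ξ (Es θ r) +
        J g ξ (fun x => Es θ c x * Es θ c' x) + J g ξ (fun x => Es θ c x * Es θ r x) := by
    rw [s2, s3]
    ring
  rw [e1]
  have e2 : ‖zj * J g ξ (Es θ c) + zi * J g ξ (Es θ c') + zi * J g ξ (Es θ r) +
        J g ξ (fun x => Es θ c x * Es θ c' x) + J g ξ (fun x => Es θ c x * Es θ r x)‖ ≤
      ‖zj * J g ξ (Es θ c)‖ + ‖zi * J g ξ (Es θ c')‖ + ‖zi * J g ξ (Es θ r)‖ +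
        ‖J g ξ (fun x => Es θ c x * Es θ c' x)‖ + ‖J g ξ (fun x => Es θ c x * Es θ r x)‖ := by
    refine (norm_add_le _ _).trans (add_le_add ?_ le_rfl)
    refine (norm_add_le _ _).trans (add_le_add ?_ le_rfl)
    refine (norm_add_le _ _).trans (add_le_add ?_ le_rfl)
    exact norm_add_le _ _
  refine (mul_le_mul_of_nonneg_left e2 hw0).trans ?_
  have e3 : wr ξ ^ (n + 1) * (‖zj * J g ξ (Es θ c)‖ + ‖zi * J g ξ (Es θ c')‖ +
      ‖zi * J g ξ (Es θ r)‖ + ‖J g ξ (fun x => Es θ c x * Es θ c' x)‖ +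
      ‖J g ξ (fun x => Es θ c x * Es θ r x)‖) =
      wr ξ ^ (n + 1) * ‖zj * J g ξ (Es θ c)‖ + wr ξ ^ (n + 1) * ‖zi * J g ξ (Es θ c')‖ +
      wr ξ ^ (n + 1) * ‖zi * J g ξ (Es θ r)‖ +
      wr ξ ^ (n + 1) * ‖J g ξ (fun x => Es θ c x * Es θ c' x)‖ +
      wr ξ ^ (n + 1) * ‖J g ξ (fun x => Es θ c x * Es θ r x)‖ := by ring
  rw [e3]
  have e4 : (4 * Real.pi + 1) * P * C₁ * (X ^ 2 * (b * a)) +
        (2 * Real.pi + 1) * C₁ * (X ^ 3 * (a * A) * wr ξ ^ (n + 1)) =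
      2 * Real.pi * P * C₁ * (X ^ 2 * (b * a)) + 2 * Real.pi * P * C₁ * (X ^ 2 * (b * a)) +
      2 * Real.pi * C₁ * (X ^ 3 * (a * A) * wr ξ ^ (n + 1)) + P * C₁ * (X ^ 2 * (b * a)) +
      C₁ * (X ^ 3 * (a * A) * wr ξ ^ (n + 1)) := by ring
  rw [e4]
  linarith

/-- **row ESF** -/
theorem esf (hA2 : RowA2) (hA3 : RowA3) (hC : RowCGF) : RowESF := by
  intro n
  obtain ⟨C₁, hC₁, hcgf⟩ := hC n (n + 1)
  obtain ⟨C₃, hC₃, hA3n⟩ := hA3 n 0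
  have hS := SW_nonneg n
  have hpi := Real.pi_pos
  have hn0 : (0 : ℝ) ≤ n := Nat.cast_nonneg n
  set C₄ : ℝ := 2 * SW n * (n + 1) with hC₄
  have hC₄0 : 0 ≤ C₄ := by positivity
  set K₁ : ℝ := (n : ℝ) ^ 2 * ((4 * Real.pi + 1) * 2 ^ (n + 1) * C₁) with hK₁
  set K₂ : ℝ := (n : ℝ) ^ 2 * ((2 * Real.pi + 1) * C₁ * C₄) with hK₂
  have hK₁0 : 0 ≤ K₁ := by positivity
  have hK₂0 : 0 ≤ K₂ := by positivity
  set C : ℝ := K₁ + K₂ + C₁ + C₃ + C₁ * C₄ with hCd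
  have hC₁C₄ : 0 ≤ C₁ * C₄ := by positivity
  refine ⟨(n + 1) + n + 1, C, by positivity, ?_⟩
  intro i₀ Ω σ s B a b hl hr hb1 hg ξ hξ hX hXa
  set X : ℝ := nr ξ with hXd
  have hX0 : 0 ≤ X := by linarith
  have hwp : 1 ≤ wr ξ ^ (n + 1) := one_le_pow₀ (wr_one ξ)
  have ha : 0 ≤ a := le_trans (mul_nonneg (by linarith) (norm_nonneg _)) (hg i₀ i₀ ξ)
  have hb : 0 ≤ b := le_trans (norm_nonneg _) (hl i₀ 0 (Nat.zero_le _) ξ)
  have hCb : ∀ {c : ℝ}, c ≤ C → c * b ≤ 1 := fun h =>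
    (mul_le_mul_of_nonneg_right h hb).trans hb1
  have hC₁b : C₁ * b ≤ 1 := hCb (by rw [hCd]; linarith)
  have hC₃b : C₃ * b ≤ 1 := hCb (by rw [hCd]; linarith)
  have hXa' : C₁ * X * (C₄ * a) ≤ 1 := by
    have h1 : C₁ * C₄ ≤ C := by rw [hCd]; linarith
    calc C₁ * X * (C₄ * a) = C₁ * C₄ * (X * a) := by ring
      _ ≤ C * (X * a) := mul_le_mul_of_nonneg_right h1 (mul_nonneg hX0 ha)
      _ = C * X * a := by ring
      _ ≤ 1 := hXa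
  have hl' : ∀ j, Cl (0 + n + 1) b (lg σ j) := fun j => H776.cl_mono (hl j) (by omega)
  have hr' : Cl (0 + n + 1) b (fun x => (σ x)⁻¹ - 1) := fun i hi x => hr i (by omega) x
  obtain ⟨q1, q2⟩ := coef_bd hA2 hA3n B hC₃b hl' hr' hg
  have hA0 : 0 ≤ C₄ * a := mul_nonneg hC₄0 ha
  have hSa : 0 ≤ 2 * SW n * a := by positivity
  have q1' : ∀ i j, nm 0 (cf 0 (HH σ s i j)) ≤ C₄ * a := fun i j => (q1 i j).trans (by
    have : 0 ≤ (n : ℝ) * (2 * SW n * a) := mul_nonneg hn0 hSa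
    rw [hC₄]; linarith)
  have q2' : ∀ j, nm 0 (cf 0 (fun x => LH σ s j x - lg σ j x)) ≤ C₄ * a := fun j =>
    (q2 j).trans (by rw [hC₄]; linarith)
  have run : ∀ e : ℝ, e = 1 ∨ e = -1 → _ := fun e he => hcgf i₀ e ξ he hξ hX (HH σ s) (lg σ)
    (LH σ s) (HH_contDiff B) (lg_contDiff B.sσ B.pos) (LH_contDiff B)
    (fun i j x hx => HH_zero B i j hx) (fun j x hx => lg_zero B j hx)
    (fun j x hx => LH_zero B j hx) b (C₄ * a) hl q1' q2' hC₁b hXa'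
  obtain ⟨c₀, -, U, -, S1, -, n1, -⟩ := run 1 (Or.inl rfl)
  obtain ⟨c', d, W', W, S3, S4, n2, n3⟩ := run (-1) (Or.inr rfl)
  have dU : ∀ x ∈ cube n, dv (sc σ) U x = 0 := dv_of_sol B.sσ B.pos
    (H := fun _ _ _ => 0) (fun _ _ => contDiff_const) (fun i j y => sc_eq σ i j y)
    (Λ := lg σ) (fun j x => by simp) S1
  have dW : ∀ x ∈ cube n, dv s W x = 0 := dv_of_sol B.sσ B.pos
    (H := HH σ s) (HH_contDiff B) (fun i j y => s_eq B i j y)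
    (Λ := LH σ s) (fun j x => rfl) S4
  have id1 := ins B (ξ := ξ) (z := zs 1 i₀ ξ) (z' := zs (-1) i₀ ξ) (fun x => zs_exp i₀ ξ x)
    (u := fun i => Es (th0 i₀) (c₀ i)) (v := fun i => Es (th0 i₀) (d i))
    (fun i => H127.es_continuous (S1.ry i) _) (fun i => H127.es_continuous (S4.ry i) _)
    S1.sW S4.sW (fun i x => S1.gr i x) (fun i x => S4.gr i x) dU dW
  set g : Fin n → Fin n → V n → ℂ := df (sc σ) s with hgd
  set E : Fin n → Fin n → ℂ := fun i j => zs (-1) i₀ ξ j * J (g i j) ξ (Es (th0 i₀) (c₀ i)) +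
    zs 1 i₀ ξ i * J (g i j) ξ (Es (th0 i₀) (d j)) +
    J (g i j) ξ (fun x => Es (th0 i₀) (c₀ i) x * Es (th0 i₀) (d j) x) with hE
  have hsplit : ∑ i, ∑ j, zs 1 i₀ ξ i * zs (-1) i₀ ξ j * ft (g i j) ξ + ∑ i, ∑ j, E i j = 0 := by
    rw [← id1, ← Finset.sum_add_distrib]
    refine Finset.sum_congr rfl fun i _ => ?_
    rw [← Finset.sum_add_distrib]
    refine Finset.sum_congr rfl fun j _ => ?_
    simp only [hE]
    ring
  rw [main_term i₀ ξ (H := fun i j => ft (g i j) ξ) (fun i j => by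
    simp only [hgd]; rw [df_symm B i j])] at hsplit
  set Q : ℂ := ((nr ξ : ℝ) : ℂ) ^ 2 * ft (g i₀ i₀) ξ +
    ∑ i, ∑ j, (ξ i : ℂ) * ξ j * ft (g i j) ξ with hQ
  have hQE : (Real.pi : ℂ) ^ 2 * Q = ∑ i, ∑ j, E i j := by linear_combination -hsplit
  have hθ : ∑ j, |th0 i₀ j| ≤ 1 / 2 := by
    rw [Finset.sum_eq_single i₀]
    · rw [th0, Pi.single_eq_same, abs_of_pos (by norm_num)]
    · intro j _ hj
      rw [th0, Pi.single_eq_of_ne hj, abs_zero]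
    · intro h
      exact absurd (Finset.mem_univ i₀) h
  set β : ℝ := (4 * Real.pi + 1) * 2 ^ (n + 1) * C₁ * (X ^ 2 * (b * a)) +
        (2 * Real.pi + 1) * C₁ * (X ^ 3 * (a * (C₄ * a)) * wr ξ ^ (n + 1)) with hβ
  have hEb : ∀ i j, wr ξ ^ (n + 1) * ‖E i j‖ ≤ β := fun i j =>
    entry_bd hA2 (df_cont B i j) (df_compact B i j) ha (hg i j) hθ ξ hX hb hA0 hC₁.le hC₁b
      (S1.ry i) (S3.ry j) (S4.ry j) (n1 i) (n2 j) (n3 j) (zs_norm (Or.inl rfl) i₀ ξ i)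
      (zs_norm (Or.inr rfl) i₀ ξ j)
  have hsum : wr ξ ^ (n + 1) * ‖∑ i, ∑ j, E i j‖ ≤ (n : ℝ) ^ 2 * β := by
    calc wr ξ ^ (n + 1) * ‖∑ i, ∑ j, E i j‖
        ≤ wr ξ ^ (n + 1) * ∑ i, ∑ j, ‖E i j‖ := by
          refine mul_le_mul_of_nonneg_left ?_ (by linarith)
          exact (norm_sum_le _ _).trans (Finset.sum_le_sum fun i _ => norm_sum_le _ _)
      _ = ∑ i, ∑ j, wr ξ ^ (n + 1) * ‖E i j‖ := by
          rw [Finset.mul_sum]
          exact Finset.sum_congr rfl fun i _ => Finset.mul_sum _ _ _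
      _ ≤ ∑ _i : Fin n, ∑ _j : Fin n, β :=
          Finset.sum_le_sum fun i _ => Finset.sum_le_sum fun j _ => hEb i j
      _ = _ := by
          simp only [Finset.sum_const, Finset.card_univ, Fintype.card_fin, nsmul_eq_mul]
          ring
  have hpi2 : 1 ≤ Real.pi ^ 2 := one_le_pow₀ (by linarith [Real.pi_gt_three])
  have hQn : wr ξ ^ (n + 1) * ‖Q‖ ≤ (n : ℝ) ^ 2 * β := by
    refine le_trans ?_ hsum
    rw [← hQE, norm_mul, norm_pow, Complex.norm_real, Real.norm_eq_abs, abs_of_pos hpi]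
    refine mul_le_mul_of_nonneg_left ?_ (by linarith)
    nlinarith [norm_nonneg Q]
  refine hQn.trans ?_
  have f1 : (n : ℝ) ^ 2 * β = K₁ * (X ^ 2 * (b * a)) + K₂ * (X ^ 3 * a ^ 2 * wr ξ ^ (n + 1)) := by
    rw [hβ, hK₁, hK₂]
    ring
  have f2 : K₁ * (X ^ 2 * (b * a)) ≤ C * (X ^ 2 * (b * a)) :=
    mul_le_mul_of_nonneg_right (by rw [hCd]; linarith) (by positivity)
  have f3 : K₂ * (X ^ 3 * a ^ 2 * wr ξ ^ (n + 1)) ≤ C * (X ^ 3 * a ^ 2 * wr ξ ^ (n + 1)) :=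
    mul_le_mul_of_nonneg_right (by rw [hCd]; linarith) (by positivity)
  rw [f1]
  calc K₁ * (X ^ 2 * (b * a)) + K₂ * (X ^ 3 * a ^ 2 * wr ξ ^ (n + 1))
      ≤ C * (X ^ 2 * (b * a)) + C * (X ^ 3 * a ^ 2 * wr ξ ^ (n + 1)) := add_le_add f2 f3
    _ = _ := by ring

end Vale.Agent.P088.LR.H650
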