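import Vale.Agent.P088.H127.Est
import Vale.Agent.P088.H776.A3
import Vale.Agent.P088.H442.Defs3

/-!
# P088, theorem CF, row ESF (1): integrals against Fourier series, weights
-/

open MeasureTheory Set
open scoped ContDiff Matrix

noncomputable section

namespace Vale.Agent.P088.LR.H650

open Vale.Agent.P088.LR Vale.Agent.P088.LR.CF

variable {n : ℕ}

/-! ## Weights -/

theorem wr_one (ζ : V n) : 1 ≤ wr ζ := by
  unfold wr
  have := Finset.sum_nonneg fun j (_ : j ∈ Finset.univ) => abs_nonneg (ζ j)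
  linarith

theorem wr_fr_zero (k : Ix n) : wr (fr 0 k) = wt k := by
  simp [wr, wt, fr]

theorem wr_sub_mul (ξ η : V n) : wr ξ ≤ wr (ξ - η) * wr η := by
  have h1 : ∑ j, |ξ j| ≤ ∑ j, |(ξ - η) j| + ∑ j, |η j| := by
    rw [← Finset.sum_add_distrib]
    refine Finset.sum_le_sum fun j _ => ?_
    have h := abs_add_le ((ξ - η) j) (η j)
    rw [Pi.sub_apply, sub_add_cancel] at h
    exact h
  have h2 := Finset.sum_nonneg fun j (_ : j ∈ Finset.univ) => abs_nonneg ((ξ - η) j)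
  have h3 := Finset.sum_nonneg fun j (_ : j ∈ Finset.univ) => abs_nonneg (η j)
  unfold wr
  nlinarith [mul_nonneg h2 h3]

theorem wr_fr_le {θ : V n} (hθ : ∑ j, |θ j| ≤ 1) (k : Ix n) : wr (fr θ k) ≤ 2 * wt k := by
  have h1 : ∑ j, |fr θ k j| ≤ ∑ j, |(k j : ℝ)| + ∑ j, |θ j| := by
    rw [← Finset.sum_add_distrib]
    exact Finset.sum_le_sum fun j _ => abs_add_le _ _
  have h2 := Finset.sum_nonneg fun j (_ : j ∈ Finset.univ) => abs_nonneg (k j : ℝ)
  unfold wr wt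
  linarith

theorem wr_pow_le {θ : V n} (hθ : ∑ j, |θ j| ≤ 1) (N : ℕ) (ξ : V n) (k : Ix n) :
    wr ξ ^ N ≤ wr (ξ - fr θ k) ^ N * (2 ^ N * wt k ^ N) := by
  have h1 := wr_one ξ
  have h2 := wr_one (ξ - fr θ k)
  have h3 := wr_one (fr θ k)
  have h5 := H776.wt_pos k
  have h4 : wr ξ ≤ wr (ξ - fr θ k) * (2 * wt k) :=
    (wr_sub_mul ξ (fr θ k)).trans (mul_le_mul_of_nonneg_left (wr_fr_le hθ k) (by linarith))
  calc wr ξ ^ N ≤ (wr (ξ - fr θ k) * (2 * wt k)) ^ N := pow_le_pow_left₀ (by linarith) h4 N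
    _ = _ := by rw [mul_pow, mul_pow]

/-! ## Integrals -/

theorem nm_eq_zero (c : Ix n → ℂ) : nm 0 c = ∑' k, ‖c k‖ := H127.nm_zero c

theorem nm_nonneg (m : ℕ) (c : Ix n → ℂ) : 0 ≤ nm m c := by
  unfold nm
  refine tsum_nonneg fun k => ?_
  have := H776.wt_pos k
  positivity

/-- `∫ g · Es θ c · e^{-2πi ξ·x} = ∑ c_m ĝ(ξ - (m+θ))`. -/
theorem ft_es {g : V n → ℂ} (hg : Continuous g) (hs : HasCompactSupport g) {c : Ix n → ℂ}
    (hc : RD c) (θ ξ : V n) :
    ∫ x, g x * (Es θ c x * ex (-ξ) x) = ∑' m, c m * ft g (ξ - fr θ m) := by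
  have hcn : Summable fun k => ‖c k‖ := H127.sum_of_rd hc
  set F : Ix n → V n → ℂ := fun m x => g x * (c m * ex (fr θ m) x * ex (-ξ) x) with hF
  have hgi : Integrable g := hg.integrable_of_hasCompactSupport hs
  have hex : ∀ η : V n, Continuous (ex η) := fun η => (H776.ex_contDiff η).continuous
  have hnF : ∀ m x, ‖F m x‖ = ‖c m‖ * ‖g x‖ := by
    intro m x
    rw [hF]
    simp only [norm_mul, H776.ex_norm, mul_one]
    ring
  have hFi : ∀ m, Integrable (F m) := by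
    intro m
    have h1 : Continuous (F m) := hg.mul ((continuous_const.mul (hex _)).mul (hex _))
    exact h1.integrable_of_hasCompactSupport (hs.mul_right)
  have hsum : Summable fun m => ∫ x, ‖F m x‖ := by
    have h2 : (fun m => ∫ x, ‖F m x‖) = fun m => ‖c m‖ * ∫ x, ‖g x‖ := by
      funext m
      rw [← integral_const_mul]
      exact integral_congr_ae (Filter.Eventually.of_forall fun x => hnF m x)
    rw [h2]
    exact hcn.mul_right _
  have h3 := MeasureTheory.hasSum_integral_of_summable_integral_norm hFi hsum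
  have h4 : ∀ m, ∫ x, F m x = c m * ft g (ξ - fr θ m) := by
    intro m
    rw [ft, ← integral_const_mul]
    refine integral_congr_ae (Filter.Eventually.of_forall fun x => ?_)
    have h5 : ex (-(ξ - fr θ m)) x = ex (fr θ m) x * ex (-ξ) x := by
      rw [← H776.ex_add]
      congr 1
      abel
    simp only [hF, h5]
    ring
  have h6 : ∀ x, ∑' m, F m x = g x * (Es θ c x * ex (-ξ) x) := by
    intro x
    simp only [hF]
    rw [tsum_mul_left, tsum_mul_right, Es]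
  rw [← h3.tsum_eq.trans (integral_congr_ae (Filter.Eventually.of_forall h6))]
  exact tsum_congr h4

/-- unweighted bound -/
theorem ft_es_bd0 {g : V n → ℂ} {a : ℝ} (ha : ∀ ζ : V n, wr ζ ^ (n + 1) * ‖ft g ζ‖ ≤ a)
    {c : Ix n → ℂ} (hc : RD c) (θ ξ : V n) :
    ‖∑' m, c m * ft g (ξ - fr θ m)‖ ≤ a * nm 0 c := by
  have hcn : Summable fun k => ‖c k‖ := H127.sum_of_rd hc
  have h1 : ∀ ζ : V n, ‖ft g ζ‖ ≤ a := fun ζ => by
    refine le_trans ?_ (ha ζ)
    have : 1 ≤ wr ζ ^ (n + 1) := one_le_pow₀ (wr_one ζ)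
    nlinarith [norm_nonneg (ft g ζ)]
  have h2 : ∀ m, ‖c m * ft g (ξ - fr θ m)‖ ≤ a * ‖c m‖ := fun m => by
    rw [norm_mul, mul_comm]
    exact mul_le_mul_of_nonneg_right (h1 _) (norm_nonneg _)
  have h3 : Summable fun m => a * ‖c m‖ := hcn.mul_left a
  rw [nm_eq_zero, ← tsum_mul_left]
  exact tsum_of_norm_bounded h3.hasSum h2

/-- weighted bound -/
theorem ft_es_bd {g : V n → ℂ} {a : ℝ} (ha : ∀ ζ : V n, wr ζ ^ (n + 1) * ‖ft g ζ‖ ≤ a)
    {c : Ix n → ℂ} (hc : RD c) {θ : V n} (hθ : ∑ j, |θ j| ≤ 1) (ξ : V n) :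
    wr ξ ^ (n + 1) * ‖∑' m, c m * ft g (ξ - fr θ m)‖ ≤ 2 ^ (n + 1) * (a * nm (n + 1) c) := by
  have hw : 0 < wr ξ ^ (n + 1) := pow_pos (by linarith [wr_one ξ]) _
  have h2 : ∀ m, ‖((wr ξ ^ (n + 1) : ℝ) : ℂ) * (c m * ft g (ξ - fr θ m))‖ ≤
      2 ^ (n + 1) * a * (wt m ^ (n + 1) * ‖c m‖) := fun m => by
    rw [norm_mul, Complex.norm_real, Real.norm_eq_abs, abs_of_pos hw, norm_mul]
    have h3 := wr_pow_le hθ (n + 1) ξ m
    have h4 := ha (ξ - fr θ m)
    have h5 := H776.wt_pos m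
    calc wr ξ ^ (n + 1) * (‖c m‖ * ‖ft g (ξ - fr θ m)‖)
        ≤ wr (ξ - fr θ m) ^ (n + 1) * (2 ^ (n + 1) * wt m ^ (n + 1)) *
          (‖c m‖ * ‖ft g (ξ - fr θ m)‖) := mul_le_mul_of_nonneg_right h3 (by positivity)
      _ = 2 ^ (n + 1) * wt m ^ (n + 1) * ‖c m‖ *
          (wr (ξ - fr θ m) ^ (n + 1) * ‖ft g (ξ - fr θ m)‖) := by ring
      _ ≤ 2 ^ (n + 1) * wt m ^ (n + 1) * ‖c m‖ * a :=
          mul_le_mul_of_nonneg_left h4 (by positivity)
      _ = _ := by ring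
  have h3 : Summable fun m => 2 ^ (n + 1) * a * (wt m ^ (n + 1) * ‖c m‖) :=
    (hc (n + 1)).mul_left _
  have h4 : wr ξ ^ (n + 1) * ‖∑' m, c m * ft g (ξ - fr θ m)‖ =
      ‖∑' m, ((wr ξ ^ (n + 1) : ℝ) : ℂ) * (c m * ft g (ξ - fr θ m))‖ := by
    rw [tsum_mul_left, norm_mul, Complex.norm_real, Real.norm_eq_abs, abs_of_pos hw]
  rw [h4, nm, ← mul_assoc, ← tsum_mul_left]
  exact tsum_of_norm_bounded h3.hasSum h2

/-- `ℓ¹` norm of the coefficients from the decay of the transform -/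
theorem nm_cf_le {g : V n → ℂ} {a : ℝ} (ha : ∀ ζ : V n, wr ζ ^ (n + 1) * ‖ft g ζ‖ ≤ a) :
    nm 0 (cf 0 g) ≤ a * ∑' k : Ix n, (wt k ^ (n + 1))⁻¹ := by
  rw [nm_eq_zero, ← tsum_mul_left]
  have h1 : ∀ k : Ix n, ‖cf 0 g k‖ ≤ a * (wt k ^ (n + 1))⁻¹ := fun k => by
    have h2 := ha (fr 0 k)
    rw [wr_fr_zero] at h2
    have h3 : 0 < wt k ^ (n + 1) := pow_pos (H776.wt_pos k) _
    rw [← div_eq_mul_inv, le_div_iff₀ h3, mul_comm]
    exact h2
  have h4 : Summable fun k : Ix n => a * (wt k ^ (n + 1))⁻¹ := (H776.sum_wt n).mul_left a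
  exact (Summable.of_nonneg_of_le (fun _ => norm_nonneg _) h1 h4).tsum_le_tsum h1 h4

/-- the coefficients of a product -/
theorem cf_mul {f g : V n → ℂ} (hf : Continuous f) (hfs : tsupport f ⊆ cube n)
    (hg : RD (cf 0 g)) (hge : ∀ x ∈ cube n, g x = Es 0 (cf 0 g) x) :
    cf 0 (fun x => f x * g x) = cv (cf 0 f) (cf 0 g) := by
  funext k
  have hfc : HasCompactSupport f := H776.cube_compact hfs
  have h1 : cf 0 (fun x => f x * g x) k = ∫ x, f x * (Es 0 (cf 0 g) x * ex (-(fr 0 k)) x) := by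
    rw [cf, ft]
    refine integral_congr_ae (Filter.Eventually.of_forall fun x => ?_)
    by_cases hx : x ∈ cube n
    · simp only [← hge x hx]
      ring
    · have : f x = 0 := by
        by_contra h
        exact hx (hfs (subset_tsupport f h))
      simp [this]
  rw [h1, ft_es hf hfc hg, cv]
  refine tsum_congr fun m => ?_
  have h2 : fr 0 k - fr 0 m = fr 0 (k - m) := by
    funext j
    simp [fr]
  rw [h2, cf, cf]
  ring

end Vale.Agent.P088.LR.H650
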