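import Vale.Agent.P088.H650.CFa

/-!
# P088, theorem CF, row ESF (2): the equation and the insertion identity
-/

open MeasureTheory Set
open scoped ContDiff Matrix

noncomputable section

namespace Vale.Agent.P088.LR.H650

open Vale.Agent.P088.LR Vale.Agent.P088.LR.CF

variable {n : ℕ}

/-! ## The equation -/

theorem pd_ofReal {σ : V n → ℝ} (hσ : Differentiable ℝ σ) (i : Fin n) (x : V n) :
    pd i (fun y => ((σ y : ℝ) : ℂ)) x = ((pd i σ x : ℝ) : ℂ) := by
  have h1 : HasFDerivAt (fun y => ((σ y : ℝ) : ℂ)) (Complex.ofRealCLM.comp (fderiv ℝ σ x)) x :=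
    Complex.ofRealCLM.hasFDerivAt.comp x (hσ x).hasFDerivAt
  rw [pd, h1.fderiv, pd]
  rfl

theorem ofReal_contDiff {σ : V n → ℝ} (hσ : ContDiff ℝ ∞ σ) :
    ContDiff ℝ ∞ fun y => ((σ y : ℝ) : ℂ) := Complex.ofRealCLM.contDiff.comp hσ

theorem pdr_contDiff {σ : V n → ℝ} (hσ : ContDiff ℝ ∞ σ) (j : Fin n) :
    ContDiff ℝ ∞ (pd j σ) := by
  have h1 : ContDiff ℝ ∞ (fderiv ℝ σ) := hσ.fderiv_right (m := ∞) le_rfl
  exact h1.clm_apply contDiff_const

theorem lg_contDiff {σ : V n → ℝ} (hσ : ContDiff ℝ ∞ σ) (hp : ∀ x, 0 < σ x) (j : Fin n) :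
    ContDiff ℝ ∞ (lg σ j) :=
  ofReal_contDiff ((pdr_contDiff hσ j).div hσ fun x => (hp x).ne')

theorem dv_of_sol {σ : V n → ℝ} (hσ : ContDiff ℝ ∞ σ) (hp : ∀ x, 0 < σ x) {s : MF n}
    {H : Fin n → Fin n → V n → ℂ} (hH : ∀ i j, ContDiff ℝ ∞ (H i j))
    (hs : ∀ i j y, ((s y i j : ℝ) : ℂ) = (σ y : ℂ) * ((1 : Matrix (Fin n) (Fin n) ℂ) i j + H i j y))
    {Λ : Fin n → V n → ℂ} (hΛ : ∀ j x, Λ j x = lg σ j x + ∑ i, lg σ i x * H i j x)
    {z : Fin n → ℂ} {θ : V n} {y : Fin n → Ix n → ℂ} {W : V n → ℂ} (S : Sol z θ H Λ y W) :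
    ∀ x ∈ cube n, dv s W x = 0 := by
  intro x hx
  set G : Fin n → V n → ℂ := fun i y => pd i W y + ∑ j, H i j y * pd j W y with hG
  have hW : ∀ j, ContDiff ℝ ∞ (pd j W) := fun j => H776.pd_contDiff S.sW j
  have hGs : ∀ i, ContDiff ℝ ∞ (G i) := fun i =>
    (hW i).add (ContDiff.sum fun j _ => (hH i j).mul (hW j))
  have h1 : ∀ i, (fun y => ∑ j, ((s y i j : ℝ) : ℂ) * pd j W y) = fun y => ((σ y : ℝ) : ℂ) * G i y := by
    intro i
    funext y
    simp only [hG, mul_add, Finset.mul_sum]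
    have h2 : ∀ j, ((s y i j : ℝ) : ℂ) * pd j W y =
        (σ y : ℂ) * (1 : Matrix (Fin n) (Fin n) ℂ) i j * pd j W y +
          (σ y : ℂ) * (H i j y * pd j W y) := by
      intro j
      rw [hs i j y]; ring
    rw [Finset.sum_congr rfl fun j _ => h2 j, Finset.sum_add_distrib]
    congr 1
    rw [Finset.sum_eq_single i]
    · rw [Matrix.one_apply_eq]; ring
    · intro j _ hj
      rw [Matrix.one_apply_ne' hj]; ring
    · intro h
      exact absurd (Finset.mem_univ i) h
  have hσx : ((σ x : ℝ) : ℂ) ≠ 0 := by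
    have := (hp x).ne'
    exact_mod_cast this
  have h3 : ∀ i, pd i (fun y => ∑ j, ((s y i j : ℝ) : ℂ) * pd j W y) x =
      (σ x : ℂ) * (lg σ i x * G i x + pd i (G i) x) := by
    intro i
    rw [h1 i, H127.pd_mul' ((ofReal_contDiff hσ).differentiable (by simp))
      ((hGs i).differentiable (by simp)) i x, pd_ofReal (hσ.differentiable (by simp)), lg]
    push_cast
    field_simp
  have h4 : ∑ i, lg σ i x * G i x = ∑ j, Λ j x * pd j W x := by
    have h5 : ∀ j, Λ j x * pd j W x = lg σ j x * pd j W x +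
        ∑ i, lg σ i x * (H i j x * pd j W x) := by
      intro j
      rw [hΛ j x, add_mul, Finset.sum_mul]
      congr 1
      exact Finset.sum_congr rfl fun i _ => by ring
    rw [Finset.sum_congr rfl fun j _ => h5 j, Finset.sum_add_distrib, Finset.sum_comm]
    have h6 : ∀ i, lg σ i x * G i x = lg σ i x * pd i W x +
        ∑ j, lg σ i x * (H i j x * pd j W x) := by
      intro i
      simp only [hG]
      rw [mul_add, Finset.mul_sum]
    rw [Finset.sum_congr rfl fun i _ => h6 i, Finset.sum_add_distrib]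
  have h7 := S.eq x hx
  have h8 : ∑ i, pd i (G i) x + ∑ j, Λ j x * pd j W x = 0 := h7
  rw [dv, Finset.sum_congr rfl fun i _ => h3 i, ← Finset.mul_sum, Finset.sum_add_distrib, h4,
    add_comm, h8, mul_zero]

/-! ## The difference tensor -/

variable {Ω : Set (V n)} {σ : V n → ℝ} {s : MF n}

theorem bal_sub : bal n ⊆ core n := by
  intro x hx j
  have h1 : (x j - 1 / 2) ^ 2 ≤ ∑ j, (x j - 1 / 2) ^ 2 :=
    Finset.single_le_sum (f := fun j => (x j - 1 / 2) ^ 2) (fun _ _ => sq_nonneg _)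
      (Finset.mem_univ j)
  have h2 : (x j - 1 / 2) ^ 2 ≤ (1 / 4) ^ 2 := by
    have : ∑ j, (x j - 1 / 2) ^ 2 ≤ 1 / 16 := hx
    linarith
  have h3 := abs_le.1 (abs_le_of_sq_le_sq' h2 (by norm_num) |> abs_le.2)
  constructor <;> linarith [h3.1, h3.2]

theorem df_contDiff (hσ : ContDiff ℝ ∞ σ) (hs : SmM s) (i j : Fin n) :
    ContDiff ℝ ∞ (df (sc σ) s i j) := by
  have h1 : ContDiff ℝ ∞ fun x => s x i j - sc σ x i j :=
    (hs i j).sub (hσ.mul contDiff_const)
  exact ofReal_contDiff h1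

theorem df_zero (B : Bk Ω σ s) (i j : Fin n) {x : V n} (hx : x ∉ Ω) : df (sc σ) s i j x = 0 := by
  rw [df, B.off x hx]
  simp

theorem df_support (B : Bk Ω σ s) (i j : Fin n) : tsupport (df (sc σ) s i j) ⊆ core n := by
  refine closure_minimal (fun x hx => ?_) H127.isCompact_core.isClosed
  by_contra hn
  exact hx (df_zero B i j fun hΩ => hn (bal_sub (B.sub hΩ)))

theorem df_compact (B : Bk Ω σ s) (i j : Fin n) : HasCompactSupport (df (sc σ) s i j) :=
  H776.cube_compact ((df_support B i j).trans H127.core_sub)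

theorem df_cont (B : Bk Ω σ s) (i j : Fin n) : Continuous (df (sc σ) s i j) :=
  (df_contDiff B.sσ B.sm i j).continuous

theorem df_symm (B : Bk Ω σ s) (i j : Fin n) : df (sc σ) s i j = df (sc σ) s j i := by
  funext x
  have h1 : s x i j = s x j i := (B.sy x).apply j i
  have h2 : sc σ x i j = sc σ x j i := by
    rcases eq_or_ne i j with rfl | h
    · rfl
    · simp only [sc, Matrix.smul_apply, Matrix.one_apply_ne h, Matrix.one_apply_ne' h]
  rw [df, df, h1, h2]

/-- the functional `∫ g u e^{-2πi ξ·x}` -/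
def J (g : V n → ℂ) (ξ : V n) (u : V n → ℂ) : ℂ := ∫ x, g x * (u x * ex (-ξ) x)

theorem J_integrable {g : V n → ℂ} (hg : Continuous g) (hs : HasCompactSupport g) (ξ : V n)
    {u : V n → ℂ} (hu : Continuous u) : Integrable fun x => g x * (u x * ex (-ξ) x) :=
  (hg.mul (hu.mul (H776.ex_contDiff _).continuous)).integrable_of_hasCompactSupport hs.mul_right

theorem J_add {g : V n → ℂ} (hg : Continuous g) (hs : HasCompactSupport g) (ξ : V n)
    {u v : V n → ℂ} (hu : Continuous u) (hv : Continuous v) :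
    J g ξ (fun x => u x + v x) = J g ξ u + J g ξ v := by
  rw [J, J, J, ← integral_add (J_integrable hg hs ξ hu) (J_integrable hg hs ξ hv)]
  refine integral_congr_ae (Filter.Eventually.of_forall fun x => ?_)
  simp only
  ring

theorem int4 {f₁ f₂ f₃ f₄ : V n → ℂ} (h₁ : Integrable f₁) (h₂ : Integrable f₂)
    (h₃ : Integrable f₃) (h₄ : Integrable f₄) :
    ∫ x, (f₁ x + f₂ x + f₃ x + f₄ x) =
      (∫ x, f₁ x) + (∫ x, f₂ x) + (∫ x, f₃ x) + (∫ x, f₄ x) := by
  have a1 : ∫ x, (f₁ x + f₂ x) = (∫ x, f₁ x) + ∫ x, f₂ x := integral_add h₁ h₂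
  have a2 : ∫ x, (f₁ x + f₂ x + f₃ x) = (∫ x, (f₁ x + f₂ x)) + ∫ x, f₃ x :=
    integral_add (h₁.add h₂) h₃
  have a3 : ∫ x, (f₁ x + f₂ x + f₃ x + f₄ x) = (∫ x, (f₁ x + f₂ x + f₃ x)) + ∫ x, f₄ x :=
    integral_add ((h₁.add h₂).add h₃) h₄
  rw [a3, a2, a1]

/-- **insertion** -/
theorem ins (B : Bk Ω σ s) {ξ : V n} {z z' : Fin n → ℂ}
    (hzz : ∀ x : V n, Complex.exp (∑ j, z j * x j) * Complex.exp (∑ j, z' j * x j) = ex (-ξ) x)
    {u v : Fin n → V n → ℂ} (hu : ∀ i, Continuous (u i)) (hv : ∀ i, Continuous (v i))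
    {U W : V n → ℂ} (hU : ContDiff ℝ ∞ U) (hW : ContDiff ℝ ∞ W)
    (gU : ∀ i x, pd i U x = Complex.exp (∑ j, z j * x j) * (z i + u i x))
    (gW : ∀ i x, pd i W x = Complex.exp (∑ j, z' j * x j) * (z' i + v i x))
    (eU : ∀ x ∈ cube n, dv (sc σ) U x = 0) (eW : ∀ x ∈ cube n, dv s W x = 0) :
    ∑ i, ∑ j, (z i * z' j * ft (df (sc σ) s i j) ξ + z' j * J (df (sc σ) s i j) ξ (u i) +
      z i * J (df (sc σ) s i j) ξ (v j) + J (df (sc σ) s i j) ξ (fun x => u i x * v j x)) = 0 := by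
  have hsub : Ω ⊆ cube n := (B.sub.trans bal_sub).trans H127.core_sub
  have h2 := B.st U W hU hW (fun x hx => eU x (hsub hx)) fun x hx => eW x (hsub hx)
  set g : Fin n → Fin n → V n → ℂ := df (sc σ) s with hg
  set T : Fin n → Fin n → V n → ℂ := fun i j x => z i * z' j * (g i j x * ex (-ξ) x) +
    z' j * (g i j x * (u i x * ex (-ξ) x)) + z i * (g i j x * (v j x * ex (-ξ) x)) +
    g i j x * (u i x * v j x * ex (-ξ) x) with hT
  have h3 : bl Ω (fun x => s x - sc σ x) U W = ∫ x, ∑ i, ∑ j, T i j x := by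
    have h5 : bl Ω (fun x => s x - sc σ x) U W = ∫ x in Ω, ∑ i, ∑ j, T i j x := by
      rw [bl]
      refine integral_congr_ae (Filter.Eventually.of_forall fun x => ?_)
      refine Finset.sum_congr rfl fun i _ => Finset.sum_congr rfl fun j _ => ?_
      have h4 : (((fun x => s x - sc σ x : MF n) x i j : ℝ) : ℂ) = g i j x := rfl
      simp only [h4, gU, gW, hT, ← hzz x]
      ring
    rw [h5]
    refine setIntegral_eq_integral_of_forall_compl_eq_zero fun x hx => ?_
    refine Finset.sum_eq_zero fun i _ => Finset.sum_eq_zero fun j _ => ?_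
    have : g i j x = 0 := df_zero B i j hx
    simp only [hT, this]
    ring
  have hc : ∀ i j, Continuous (g i j) := df_cont B
  have hk : ∀ i j, HasCompactSupport (g i j) := df_compact B
  have i1 : ∀ i j, Integrable fun x => g i j x * ex (-ξ) x := fun i j =>
    ((hc i j).mul (H776.ex_contDiff _).continuous).integrable_of_hasCompactSupport
      (hk i j).mul_right
  have i2 : ∀ i j, Integrable fun x => g i j x * (u i x * ex (-ξ) x) := fun i j =>
    J_integrable (hc i j) (hk i j) ξ (hu i)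
  have i3 : ∀ i j, Integrable fun x => g i j x * (v j x * ex (-ξ) x) := fun i j =>
    J_integrable (hc i j) (hk i j) ξ (hv j)
  have i4 : ∀ i j, Integrable fun x => g i j x * (u i x * v j x * ex (-ξ) x) := fun i j =>
    J_integrable (hc i j) (hk i j) ξ ((hu i).mul (hv j))
  have j1 : ∀ i j, Integrable fun x => z i * z' j * (g i j x * ex (-ξ) x) := fun i j =>
    (i1 i j).const_mul _
  have j2 : ∀ i j, Integrable fun x => z' j * (g i j x * (u i x * ex (-ξ) x)) := fun i j =>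
    (i2 i j).const_mul _
  have j3 : ∀ i j, Integrable fun x => z i * (g i j x * (v j x * ex (-ξ) x)) := fun i j =>
    (i3 i j).const_mul _
  have iT : ∀ i j, Integrable (T i j) := fun i j =>
    (((j1 i j).add (j2 i j)).add (j3 i j)).add (i4 i j)
  rw [h3, integral_finsetSum _ fun i _ => integrable_finsetSum _ fun j _ => iT i j] at h2
  rw [← h2]
  refine Finset.sum_congr rfl fun i _ => ?_
  rw [integral_finsetSum _ fun j _ => iT i j]
  refine Finset.sum_congr rfl fun j _ => ?_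
  have e1 : ∫ x, T i j x = (∫ x, z i * z' j * (g i j x * ex (-ξ) x)) +
      (∫ x, z' j * (g i j x * (u i x * ex (-ξ) x))) + (∫ x, z i * (g i j x * (v j x * ex (-ξ) x))) +
      (∫ x, g i j x * (u i x * v j x * ex (-ξ) x)) := by
    exact int4 (j1 i j) (j2 i j) (j3 i j) (i4 i j)
  rw [e1, integral_const_mul, integral_const_mul, integral_const_mul]
  rfl

end Vale.Agent.P088.LR.H650
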